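import Crest.Agent.Helper68.S0076.Defs

/-!
# S0076 log-spread lemma, leaf PT (helper72, hedge copy): `sum_hits` and `potential`

One-step supermartingale inequality for the potential `Φ`; see
notes/s0076_helper68_blueprint.md, item [PT].
-/

set_option autoImplicit false

namespace Crest.Agent.Helper72.S0076

open Finset Crest.Agent.Helper68.S0076
open scoped Pointwise

variable {G : Type*} {X : Type*} [Group G] [Fintype G] [Fintype X] [DecidableEq X] [MulAction G X]

/-- Double counting of the new points. -/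
theorem sum_knew_eq (Z B U : Finset X) :
    ∑ g ∈ Finset.univ.filter (fun g : G => g • Z ⊆ B), knew Z U g
      = ∑ x ∈ B \ U, hits G Z B x := by
  classical
  have h1 : ∀ g ∈ Finset.univ.filter (fun g : G => g • Z ⊆ B),
      knew Z U g = ∑ x ∈ B \ U, if x ∈ g • Z then 1 else 0 := by
    intro g hg
    rw [Finset.mem_filter] at hg
    unfold knew
    rw [← Finset.card_filter]
    congr 1
    ext x
    simp only [Finset.mem_sdiff, Finset.mem_filter]
    constructor
    · rintro ⟨hx, hxU⟩; exact ⟨⟨hg.2 hx, hxU⟩, hx⟩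
    · rintro ⟨⟨_, hxU⟩, hx⟩; exact ⟨hx, hxU⟩
  rw [Finset.sum_congr rfl h1, Finset.sum_comm]
  refine Finset.sum_congr rfl fun x _ => ?_
  unfold hits
  rw [← Finset.card_filter, Finset.filter_filter]

theorem sum_hits (Z B : Finset X) :
    ∑ x ∈ B, hits G Z B x = Z.card * inj G Z B := by
  classical
  have h := sum_knew_eq (G := G) Z B (∅ : Finset X)
  rw [Finset.sdiff_empty] at h
  rw [← h]
  have h2 : ∀ g ∈ Finset.univ.filter (fun g : G => g • Z ⊆ B),
      knew Z (∅ : Finset X) g = Z.card := by
    intro g _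
    unfold knew
    rw [Finset.sdiff_empty, Finset.card_smul_finset]
  rw [Finset.sum_congr rfl h2, Finset.sum_const, smul_eq_mul, mul_comm]
  rfl

theorem Phi_zero (ω : ℝ) (m : ℕ) : Phi ω m 0 = 0 := by simp [Phi]

theorem Phi_step (ω : ℝ) (m : ℕ) (hω : 0 < ω) (hm : 0 < m) (r k : ℝ) (hr : 0 < r)
    (hkr : k ≤ r) :
    Phi ω m (r - k) + k * Real.log (Real.exp 1 * (m : ℝ) / (ω * r)) ≤ Phi ω m r := by
  have hm' : (0 : ℝ) < m := by exact_mod_cast hm
  rcases eq_or_lt_of_le hkr with h | h
  · subst h
    rw [sub_self, Phi_zero]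
    unfold Phi
    nlinarith
  · have hd : 0 < r - k := by linarith
    unfold Phi
    have hlog : Real.log (Real.exp 1 * (m : ℝ) / (ω * (r - k)))
        = Real.log (Real.exp 1 * (m : ℝ) / (ω * r)) + Real.log (r / (r - k)) := by
      rw [← Real.log_mul (by positivity) (by positivity)]
      congr 1
      field_simp
    rw [hlog]
    have h1 : Real.log (r / (r - k)) ≤ r / (r - k) - 1 :=
      Real.log_le_sub_one_of_pos (by positivity)
    have h2 : (r - k) * Real.log (r / (r - k)) ≤ k := by
      have h3 : (r - k) * (r / (r - k) - 1) = k := by field_simp; ring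
      have h4 := mul_le_mul_of_nonneg_left h1 hd.le
      linarith
    nlinarith

theorem nu_mem' (ω : ℝ) (E m u : ℕ) (hω : 0 ≤ ω) (hm : 0 < m)
    (hωE : ω * (E : ℝ) ≤ (m : ℝ)) : 0 ≤ nu ω E m u ∧ nu ω E m u ≤ 1 := by
  unfold nu
  split_ifs with h
  · constructor <;> norm_num
  · have hm' : (0 : ℝ) < m := by exact_mod_cast hm
    have h1 : ((E - u : ℕ) : ℝ) ≤ (E : ℝ) := by exact_mod_cast Nat.sub_le E u
    have h0 : (0 : ℝ) ≤ ((E - u : ℕ) : ℝ) := Nat.cast_nonneg _
    constructor
    · positivity
    · rw [div_le_one hm']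
      nlinarith

theorem knew_le (Z U : Finset X) (g : G) : knew Z U g ≤ Z.card := by
  unfold knew
  calc ((g • Z) \ U).card ≤ (g • Z).card := Finset.card_le_card Finset.sdiff_subset
    _ = Z.card := Finset.card_smul_finset g Z

theorem cost_nonneg (ω : ℝ) (E : ℕ) (Z U : Finset X) (g : G) (hω : 0 ≤ ω) (hZ : 0 < Z.card)
    (hωE : ω * (E : ℝ) ≤ (Z.card : ℝ)) : 0 ≤ cost ω E Z U g := by
  obtain ⟨h0, h1⟩ := nu_mem' ω E Z.card U.card hω hZ hωE
  unfold cost
  have hk : (knew Z U g : ℝ) ≤ (Z.card : ℝ) := by exact_mod_cast knew_le Z U g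
  have hl1 : 0 ≤ Real.log (1 / nu ω E Z.card U.card) := by
    rcases eq_or_lt_of_le h0 with h | h
    · rw [← h]; simp
    · apply Real.log_nonneg
      rw [le_div_iff₀ h]; linarith
  have hl2 : 0 ≤ Real.log (1 / (1 - nu ω E Z.card U.card)) := by
    rcases eq_or_lt_of_le h1 with h | h
    · rw [h]; simp
    · apply Real.log_nonneg
      rw [le_div_iff₀ (by linarith)]; linarith
  exact add_nonneg (mul_nonneg (Nat.cast_nonneg _) hl1) (mul_nonneg (sub_nonneg.2 hk) hl2)

theorem Cseq_nonneg' (Z : Finset X) (T : ℕ) (U : Finset X) : 0 ≤ Cseq G Z T U := by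
  induction T generalizing U with
  | zero =>
    show 0 ≤ (if U = ∅ then (1 : ℝ) else 0)
    split_ifs <;> norm_num
  | succ T ih =>
    show 0 ≤ push Z (fun (_ : Finset X) (_ : G) => (1 : ℝ)) (Cseq G Z T) U
    unfold push
    refine Finset.sum_nonneg fun U' _ => Finset.sum_nonneg fun g _ => ?_
    split_ifs
    · exact mul_nonneg (ih U') zero_le_one
    · exact le_rfl

theorem Lseq_nonneg (ω : ℝ) (E : ℕ) (Z : Finset X) (hω : 0 ≤ ω) (hZ : 0 < Z.card)
    (hωE : ω * (E : ℝ) ≤ (Z.card : ℝ)) (T : ℕ) (U : Finset X) :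
    0 ≤ Lseq G ω E Z T U := by
  induction T generalizing U with
  | zero => exact le_rfl
  | succ T ih =>
    show 0 ≤ ∑ U' : Finset X, ∑ g : G,
      if U' ∪ g • Z = U then (Lseq G ω E Z T U' + Cseq G Z T U' * cost ω E Z U' g) else 0
    refine Finset.sum_nonneg fun U' _ => Finset.sum_nonneg fun g _ => ?_
    split_ifs
    · exact add_nonneg (ih U')
        (mul_nonneg (Cseq_nonneg' Z T U') (cost_nonneg ω E Z U' g hω hZ hωE))
    · exact le_rfl

theorem card_union_smul (Z U : Finset X) (g : G) :
    ((U ∪ g • Z).card : ℝ) = (U.card : ℝ) + (knew Z U g : ℝ) := by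
  have h1 : (g • Z \ U).card + U.card = (g • Z ∪ U).card := Finset.card_sdiff_add_card _ _
  rw [Finset.union_comm]
  unfold knew
  rw [← h1]; push_cast; ring

/-- The one-step supermartingale inequality. -/
theorem one_step (B Z U : Finset X) (ω : ℝ) (hω : 0 < ω) (hZ : 0 < Z.card)
    (hωE : ω * (B.card : ℝ) ≤ (Z.card : ℝ))
    (hheavy : ∀ x ∈ B, ω * (inj G Z B : ℝ) ≤ (hits G Z B x : ℝ)) (hU : U ⊆ B) :
    ∑ g ∈ Finset.univ.filter (fun g : G => g • Z ⊆ B),
        (cost ω B.card Z U g
          + Phi ω Z.card ((B.card : ℝ) - (U.card : ℝ) - (knew Z U g : ℝ)))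
      ≤ (inj G Z B : ℝ) * Phi ω Z.card ((B.card : ℝ) - (U.card : ℝ)) := by
  classical
  have hI : (inj G Z B : ℝ) = ((Finset.univ.filter (fun g : G => g • Z ⊆ B)).card : ℝ) := rfl
  have hm : (0 : ℝ) < (Z.card : ℝ) := by exact_mod_cast hZ
  have huE : U.card ≤ B.card := Finset.card_le_card hU
  have huE' : (U.card : ℝ) ≤ (B.card : ℝ) := by exact_mod_cast huE
  have hk : ∀ g ∈ Finset.univ.filter (fun g : G => g • Z ⊆ B),
      (knew Z U g : ℝ) ≤ (B.card : ℝ) - (U.card : ℝ) := by
    intro g hg
    rw [Finset.mem_filter] at hg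
    have h2 : ((U ∪ g • Z).card : ℝ) ≤ (B.card : ℝ) := by
      exact_mod_cast Finset.card_le_card (Finset.union_subset hU hg.2)
    rw [card_union_smul] at h2
    linarith
  have hk0 : ∀ g : G, (0 : ℝ) ≤ (knew Z U g : ℝ) := fun g => Nat.cast_nonneg _
  rcases eq_or_lt_of_le (sub_nonneg.2 huE') with hr00 | hrpos
  · -- r = 0
    rw [← hr00, Phi_zero, mul_zero]
    apply le_of_eq
    apply Finset.sum_eq_zero
    intro g hg
    have hkg : (knew Z U g : ℝ) = 0 := le_antisymm (by have := hk g hg; linarith) (hk0 g)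
    have hkg' : knew Z U g = 0 := by exact_mod_cast hkg
    have hsub : B.card - U.card = 0 := by
      have : (B.card : ℝ) = (U.card : ℝ) := by linarith
      have : B.card = U.card := by exact_mod_cast this
      omega
    rw [hkg, sub_zero, Phi_zero, add_zero]
    unfold cost nu
    rw [hkg']
    split_ifs with h0
    · simp
    · simp [hsub]
  · set r : ℝ := (B.card : ℝ) - (U.card : ℝ) with hr
    have hrE : r ≤ (B.card : ℝ) := by rw [hr]; linarith [(Nat.cast_nonneg U.card : (0:ℝ) ≤ U.card)]
    have hωr : ω * r ≤ (Z.card : ℝ) := le_trans (mul_le_mul_of_nonneg_left hrE hω.le) hωE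
    have hA : 0 ≤ Real.log (Real.exp 1 * (Z.card : ℝ) / (ω * r)) := by
      apply Real.log_nonneg
      rw [le_div_iff₀ (by positivity)]
      have : (1 : ℝ) ≤ Real.exp 1 := by
        have := Real.add_one_le_exp (1 : ℝ); linarith
      nlinarith
    have hPhi : ∀ g ∈ Finset.univ.filter (fun g : G => g • Z ⊆ B),
        Phi ω Z.card (r - (knew Z U g : ℝ))
          ≤ Phi ω Z.card r
            - (knew Z U g : ℝ) * Real.log (Real.exp 1 * (Z.card : ℝ) / (ω * r)) := by
      intro g hg
      have := Phi_step ω Z.card hω hZ r (knew Z U g : ℝ) hrpos (hk g hg)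
      linarith
    by_cases hUe : U = ∅
    · -- first copy: cost 0
      have hc : ∀ g : G, cost ω B.card Z U g = 0 := by
        intro g
        unfold cost nu
        simp [hUe]
      calc ∑ g ∈ Finset.univ.filter (fun g : G => g • Z ⊆ B),
              (cost ω B.card Z U g + Phi ω Z.card (r - (knew Z U g : ℝ)))
          ≤ ∑ _g ∈ Finset.univ.filter (fun g : G => g • Z ⊆ B), Phi ω Z.card r := by
            apply Finset.sum_le_sum
            intro g hg
            rw [hc g, zero_add]
            have h1 := hPhi g hg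
            have h2 : 0 ≤ (knew Z U g : ℝ) * Real.log (Real.exp 1 * (Z.card : ℝ) / (ω * r)) :=
              mul_nonneg (hk0 g) hA
            linarith
        _ = (inj G Z B : ℝ) * Phi ω Z.card r := by
            rw [Finset.sum_const, nsmul_eq_mul, hI]
    · -- generic step
      have hu0 : U.card ≠ 0 := by
        intro h; exact hUe (Finset.card_eq_zero.1 h)
      have hupos : (0 : ℝ) < (U.card : ℝ) := by
        exact_mod_cast Nat.pos_of_ne_zero hu0
      have hνdef : nu ω B.card Z.card U.card = ω * r / (Z.card : ℝ) := by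
        unfold nu
        rw [if_neg hu0, Nat.cast_sub huE]
      set ν : ℝ := ω * r / (Z.card : ℝ) with hν
      have hν0 : 0 < ν := by rw [hν]; positivity
      have hν1 : ν < 1 := by
        rw [hν, div_lt_one hm]
        have : ω * r < ω * (B.card : ℝ) := by
          apply mul_lt_mul_of_pos_left _ hω
          rw [hr]; linarith
        linarith
      set L1 : ℝ := Real.log (1 / ν) with hL1
      set L2 : ℝ := Real.log (1 / (1 - ν)) with hL2
      set A : ℝ := Real.log (Real.exp 1 * (Z.card : ℝ) / (ω * r)) with hAdef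
      set K1 : ℝ := ∑ g ∈ Finset.univ.filter (fun g : G => g • Z ⊆ B), (knew Z U g : ℝ) with hK1
      have hAL : A = 1 + L1 := by
        rw [hAdef, hL1, hν, mul_div_assoc, Real.log_mul (Real.exp_pos 1).ne' (by positivity),
          Real.log_exp, one_div_div]
      -- K1 in terms of hits
      have hK1hits : K1 = ∑ x ∈ B \ U, (hits G Z B x : ℝ) := by
        rw [hK1]
        have := congrArg (Nat.cast : ℕ → ℝ) (sum_knew_eq (G := G) Z B U)
        push_cast at this
        exact this
      have hcardsd : ((B \ U).card : ℝ) = r := by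
        rw [Finset.card_sdiff_of_subset hU, Nat.cast_sub huE]
      have hK1lb : (Z.card : ℝ) * (inj G Z B : ℝ) * ν ≤ K1 := by
        rw [hK1hits]
        calc (Z.card : ℝ) * (inj G Z B : ℝ) * ν = ∑ _x ∈ B \ U, ω * (inj G Z B : ℝ) := by
              rw [Finset.sum_const, nsmul_eq_mul, hcardsd, hν]
              field_simp
          _ ≤ ∑ x ∈ B \ U, (hits G Z B x : ℝ) := by
              apply Finset.sum_le_sum
              intro x hx
              exact hheavy x (Finset.mem_sdiff.1 hx).1
      -- sum of the costs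
      have hcost : ∑ g ∈ Finset.univ.filter (fun g : G => g • Z ⊆ B), cost ω B.card Z U g
          = K1 * L1 + ((Z.card : ℝ) * (inj G Z B : ℝ) - K1) * L2 := by
        unfold cost
        rw [hνdef, Finset.sum_add_distrib, ← Finset.sum_mul, ← Finset.sum_mul,
          Finset.sum_sub_distrib, Finset.sum_const, nsmul_eq_mul, hI]
        ring
      have hL2nn : 0 ≤ L2 := by
        rw [hL2]
        apply Real.log_nonneg
        rw [le_div_iff₀ (by linarith)]; linarith
      have hL2le : L2 ≤ ν / (1 - ν) := by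
        have h1 : Real.log (1 / (1 - ν)) ≤ 1 / (1 - ν) - 1 :=
          Real.log_le_sub_one_of_pos (by apply div_pos one_pos; linarith)
        have h2 : 1 / (1 - ν) - 1 = ν / (1 - ν) := by
          have : (1 - ν) ≠ 0 := by linarith
          field_simp
          ring
        rw [hL2]; linarith
      have hInn : (0 : ℝ) ≤ (inj G Z B : ℝ) := Nat.cast_nonneg _
      have h3 : ((Z.card : ℝ) * (inj G Z B : ℝ) - K1) * L2 ≤ K1 := by
        have ha : (Z.card : ℝ) * (inj G Z B : ℝ) - K1
            ≤ (Z.card : ℝ) * (inj G Z B : ℝ) * (1 - ν) := by linarith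
        have hb : 0 ≤ (Z.card : ℝ) * (inj G Z B : ℝ) * (1 - ν) := by
          apply mul_nonneg (mul_nonneg hm.le hInn); linarith
        calc ((Z.card : ℝ) * (inj G Z B : ℝ) - K1) * L2
            ≤ ((Z.card : ℝ) * (inj G Z B : ℝ) * (1 - ν)) * (ν / (1 - ν)) :=
              mul_le_mul ha hL2le hL2nn hb
          _ = (Z.card : ℝ) * (inj G Z B : ℝ) * ν := by
              have : (1 - ν) ≠ 0 := by linarith
              field_simp
          _ ≤ K1 := hK1lb
      have hsumPhi : ∑ g ∈ Finset.univ.filter (fun g : G => g • Z ⊆ B),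
            Phi ω Z.card (r - (knew Z U g : ℝ))
          ≤ (inj G Z B : ℝ) * Phi ω Z.card r - K1 * A := by
        calc ∑ g ∈ Finset.univ.filter (fun g : G => g • Z ⊆ B),
              Phi ω Z.card (r - (knew Z U g : ℝ))
            ≤ ∑ g ∈ Finset.univ.filter (fun g : G => g • Z ⊆ B),
                (Phi ω Z.card r - (knew Z U g : ℝ) * A) := Finset.sum_le_sum hPhi
          _ = (inj G Z B : ℝ) * Phi ω Z.card r - K1 * A := by
              rw [Finset.sum_sub_distrib, Finset.sum_const, nsmul_eq_mul, ← Finset.sum_mul, hI]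
      rw [Finset.sum_add_distrib, hcost]
      rw [hAL] at hsumPhi
      nlinarith

theorem potential (B Z : Finset X) (ω : ℝ) (hω : 0 < ω) (hZ : 0 < Z.card)
    (hωE : ω * (B.card : ℝ) ≤ (Z.card : ℝ)) (hinj : 0 < inj G Z B)
    (hheavy : ∀ x ∈ B, ω * (inj G Z B : ℝ) ≤ (hits G Z B x : ℝ)) (T : ℕ) :
    Lseq G ω B.card Z T B ≤ (inj G Z B : ℝ) ^ T * Phi ω Z.card (B.card : ℝ) := by
  classical
  have hm : (0 : ℝ) < (Z.card : ℝ) := by exact_mod_cast hZ
  have hInn : (0 : ℝ) ≤ (inj G Z B : ℝ) := Nat.cast_nonneg _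
  -- nonnegativity of the potential on subsets of B
  have hΦnn : ∀ U ∈ B.powerset, 0 ≤ Phi ω Z.card ((B.card : ℝ) - (U.card : ℝ)) := by
    intro U hU
    have huE' : (U.card : ℝ) ≤ (B.card : ℝ) := by
      exact_mod_cast Finset.card_le_card (Finset.mem_powerset.1 hU)
    rcases eq_or_lt_of_le (sub_nonneg.2 huE') with h0 | hpos
    · rw [← h0, Phi_zero]
    · have hrE : (B.card : ℝ) - (U.card : ℝ) ≤ (B.card : ℝ) := by
        linarith [(Nat.cast_nonneg U.card : (0:ℝ) ≤ U.card)]
      have hωr : ω * ((B.card : ℝ) - (U.card : ℝ)) ≤ (Z.card : ℝ) :=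
        le_trans (mul_le_mul_of_nonneg_left hrE hω.le) hωE
      have hA : 0 ≤ Real.log (Real.exp 1 * (Z.card : ℝ) / (ω * ((B.card : ℝ) - (U.card : ℝ)))) := by
        apply Real.log_nonneg
        rw [le_div_iff₀ (by positivity)]
        have : (1 : ℝ) ≤ Real.exp 1 := by
          have := Real.add_one_le_exp (1 : ℝ); linarith
        nlinarith
      unfold Phi
      exact mul_nonneg hpos.le (by linarith)
  -- the potential sum
  have key : ∀ T : ℕ, ∑ U ∈ B.powerset,
      (Lseq G ω B.card Z T U + Cseq G Z T U * Phi ω Z.card ((B.card : ℝ) - (U.card : ℝ)))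
        ≤ (inj G Z B : ℝ) ^ T * Phi ω Z.card (B.card : ℝ) := by
    intro T
    induction T with
    | zero =>
      have h0 : ∀ U ∈ B.powerset,
          (Lseq G ω B.card Z 0 U + Cseq G Z 0 U * Phi ω Z.card ((B.card : ℝ) - (U.card : ℝ)))
            = if U = ∅ then Phi ω Z.card (B.card : ℝ) else 0 := by
        intro U _
        show (0 : ℝ) + (if U = ∅ then (1 : ℝ) else 0) * Phi ω Z.card ((B.card : ℝ) - (U.card : ℝ))
          = if U = ∅ then Phi ω Z.card (B.card : ℝ) else 0
        split_ifs with h
        · subst h; simp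
        · simp
      rw [Finset.sum_congr rfl h0, Finset.sum_ite_eq']
      simp
    | succ T ih =>
      have e1 : ∑ U' ∈ B.powerset, (Lseq G ω B.card Z (T + 1) U'
            + Cseq G Z (T + 1) U' * Phi ω Z.card ((B.card : ℝ) - (U'.card : ℝ)))
          = ∑ U' ∈ B.powerset, ∑ U : Finset X, ∑ g : G,
            if U ∪ g • Z = U' then (Lseq G ω B.card Z T U + Cseq G Z T U *
              (cost ω B.card Z U g
                + Phi ω Z.card ((B.card : ℝ) - (U.card : ℝ) - (knew Z U g : ℝ)))) else 0 := by
        refine Finset.sum_congr rfl fun U' _ => ?_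
        have hL : Lseq G ω B.card Z (T + 1) U' = ∑ U : Finset X, ∑ g : G,
            if U ∪ g • Z = U' then
              (Lseq G ω B.card Z T U + Cseq G Z T U * cost ω B.card Z U g) else 0 := rfl
        have hC : Cseq G Z (T + 1) U' = ∑ U : Finset X, ∑ g : G,
            if U ∪ g • Z = U' then Cseq G Z T U * 1 else 0 := rfl
        rw [hL, hC, Finset.sum_mul, ← Finset.sum_add_distrib]
        refine Finset.sum_congr rfl fun U _ => ?_
        rw [Finset.sum_mul, ← Finset.sum_add_distrib]
        refine Finset.sum_congr rfl fun g _ => ?_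
        split_ifs with h
        · subst h
          rw [card_union_smul, ← sub_sub]
          ring
        · simp
      rw [e1, Finset.sum_comm]
      have e2 : ∀ U : Finset X, (∑ U' ∈ B.powerset, ∑ g : G,
            if U ∪ g • Z = U' then (Lseq G ω B.card Z T U + Cseq G Z T U *
              (cost ω B.card Z U g
                + Phi ω Z.card ((B.card : ℝ) - (U.card : ℝ) - (knew Z U g : ℝ)))) else 0)
          = ∑ g : G, if U ∪ g • Z ∈ B.powerset then (Lseq G ω B.card Z T U + Cseq G Z T U *
              (cost ω B.card Z U g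
                + Phi ω Z.card ((B.card : ℝ) - (U.card : ℝ) - (knew Z U g : ℝ)))) else 0 := by
        intro U
        rw [Finset.sum_comm]
        refine Finset.sum_congr rfl fun g _ => ?_
        rw [Finset.sum_ite_eq]
      rw [Finset.sum_congr rfl (fun U _ => e2 U)]
      -- restrict to U ⊆ B
      have e3 : (∑ U : Finset X, ∑ g : G, if U ∪ g • Z ∈ B.powerset then
            (Lseq G ω B.card Z T U + Cseq G Z T U *
              (cost ω B.card Z U g
                + Phi ω Z.card ((B.card : ℝ) - (U.card : ℝ) - (knew Z U g : ℝ)))) else 0)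
          = ∑ U ∈ B.powerset, ∑ g ∈ Finset.univ.filter (fun g : G => g • Z ⊆ B),
            (Lseq G ω B.card Z T U + Cseq G Z T U *
              (cost ω B.card Z U g
                + Phi ω Z.card ((B.card : ℝ) - (U.card : ℝ) - (knew Z U g : ℝ)))) := by
        symm
        rw [← Finset.sum_subset (Finset.subset_univ B.powerset)]
        · refine Finset.sum_congr rfl fun U hU => ?_
          rw [Finset.sum_filter]
          refine Finset.sum_congr rfl fun g _ => ?_
          have hiff : (g • Z ⊆ B) ↔ (U ∪ g • Z ∈ B.powerset) := by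
            rw [Finset.mem_powerset, Finset.union_subset_iff]
            exact ⟨fun h => ⟨Finset.mem_powerset.1 hU, h⟩, fun h => h.2⟩
          by_cases hg : g • Z ⊆ B
          · rw [if_pos hg, if_pos (hiff.1 hg)]
          · rw [if_neg hg, if_neg (fun h => hg (hiff.2 h))]
        · intro U _ hU
          apply Finset.sum_eq_zero
          intro g _
          rw [if_neg]
          intro h
          rw [Finset.mem_powerset, Finset.union_subset_iff] at h
          exact hU (Finset.mem_powerset.2 h.1)
      rw [e3]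
      calc ∑ U ∈ B.powerset, ∑ g ∈ Finset.univ.filter (fun g : G => g • Z ⊆ B),
            (Lseq G ω B.card Z T U + Cseq G Z T U *
              (cost ω B.card Z U g
                + Phi ω Z.card ((B.card : ℝ) - (U.card : ℝ) - (knew Z U g : ℝ))))
          ≤ ∑ U ∈ B.powerset, (inj G Z B : ℝ) * (Lseq G ω B.card Z T U
              + Cseq G Z T U * Phi ω Z.card ((B.card : ℝ) - (U.card : ℝ))) := by
            apply Finset.sum_le_sum
            intro U hU
            have h1 := one_step (G := G) B Z U ω hω hZ hωE hheavy (Finset.mem_powerset.1 hU)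
            have hC := Cseq_nonneg' (G := G) Z T U
            have hI : (inj G Z B : ℝ)
                = ((Finset.univ.filter (fun g : G => g • Z ⊆ B)).card : ℝ) := rfl
            rw [Finset.sum_add_distrib, Finset.sum_const, nsmul_eq_mul, ← Finset.mul_sum, ← hI]
            have h2 := mul_le_mul_of_nonneg_left h1 hC
            linarith
        _ = (inj G Z B : ℝ) * ∑ U ∈ B.powerset, (Lseq G ω B.card Z T U
              + Cseq G Z T U * Phi ω Z.card ((B.card : ℝ) - (U.card : ℝ))) := by
            rw [Finset.mul_sum]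
        _ ≤ (inj G Z B : ℝ) * ((inj G Z B : ℝ) ^ T * Phi ω Z.card (B.card : ℝ)) :=
            mul_le_mul_of_nonneg_left ih hInn
        _ = (inj G Z B : ℝ) ^ (T + 1) * Phi ω Z.card (B.card : ℝ) := by ring
  have hmem : B ∈ B.powerset := Finset.mem_powerset.2 (Finset.Subset.refl B)
  have hsingle := Finset.single_le_sum
    (f := fun U => Lseq G ω B.card Z T U
      + Cseq G Z T U * Phi ω Z.card ((B.card : ℝ) - (U.card : ℝ)))
    (fun U hU => add_nonneg (Lseq_nonneg (G := G) ω B.card Z hω.le hZ hωE T U)
      (mul_nonneg (Cseq_nonneg' (G := G) Z T U) (hΦnn U hU))) hmem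
  have hB : Lseq G ω B.card Z T B
      + Cseq G Z T B * Phi ω Z.card ((B.card : ℝ) - (B.card : ℝ)) = Lseq G ω B.card Z T B := by
    rw [sub_self, Phi_zero, mul_zero, add_zero]
  have hsingle' : Lseq G ω B.card Z T B ≤ ∑ U ∈ B.powerset, (Lseq G ω B.card Z T U
      + Cseq G Z T U * Phi ω Z.card ((B.card : ℝ) - (U.card : ℝ))) := by
    have := hsingle
    simp only [hB] at this
    exact this
  exact hsingle'.trans (key T)

end Crest.Agent.Helper72.S0076
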